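import Mathlib

/-! Leading coefficient of `det (x0 + t β + G)` as `t → ∞` and its consequences for a generic
point of a line in the zero set. -/

set_option linter.all false

namespace Vale.Agent.P256.H220

open Matrix Filter Topology Polynomial

variable {n : Type*} [Fintype n] [DecidableEq n]

/-- number of non zero entries -/
noncomputable def nn (β : n → ℝ) : ℕ := (Finset.univ.filter fun i => β i ≠ 0).card

/-- product of the non zero entries -/
noncomputable def pz (β : n → ℝ) : ℝ := ∏ i, if β i = 0 then 1 else β i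

theorem pz_ne (β : n → ℝ) : pz β ≠ 0 := by
  unfold pz
  rw [Finset.prod_ne_zero_iff]
  intro i _
  split_ifs with h
  · exact one_ne_zero
  · exact h

/-- block on the zero entries of `β` -/
def bz (β : n → ℝ) (G : Matrix n n ℝ) : Matrix {i // β i = 0} {i // β i = 0} ℝ :=
  G.submatrix (fun i => i.1) (fun i => i.1)

theorem bz_apply (β : n → ℝ) (G : Matrix n n ℝ) (i j) : bz β G i j = G i.1 j.1 := rfl

noncomputable def scal (β : n → ℝ) (G : Matrix n n ℝ) (t : ℝ) : Matrix n n ℝ :=
  Matrix.of fun i j => (if β i = 0 then 1 else t⁻¹) * (t • diagonal β + G) i j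

theorem det_scal (β : n → ℝ) (G : Matrix n n ℝ) (t : ℝ) :
    (scal β G t).det = (t⁻¹) ^ (nn β) * (t • diagonal β + G).det := by
  unfold scal
  rw [det_mul_column]
  congr 1
  unfold nn
  rw [Finset.prod_ite]
  simp

noncomputable def lmat (β : n → ℝ) (G : Matrix n n ℝ) : Matrix n n ℝ :=
  Matrix.of fun i j => if β i = 0 then G i j else diagonal β i j

theorem det_lmat (β : n → ℝ) (G : Matrix n n ℝ) :
    (lmat β G).det = (bz β G).det * pz β := by
  classical
  rw [Matrix.twoBlockTriangular_det _ (fun i => β i = 0)]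
  · congr 1
    · congr 1
      ext i j
      change (if β i.1 = 0 then G i.1 j.1 else diagonal β i.1 j.1) = G i.1 j.1
      rw [if_pos i.2]
    · have : (toSquareBlockProp (lmat β G) fun i => ¬ β i = 0)
          = diagonal (fun i : {i // ¬ β i = 0} => β i.1) := by
        ext i j
        change (if β i.1 = 0 then G i.1 j.1 else diagonal β i.1 j.1) = _
        rw [if_neg i.2, diagonal_apply, diagonal_apply]
        by_cases h : i = j
        · subst h; simp
        · rw [if_neg h, if_neg (fun h' => h (Subtype.ext h'))]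
      rw [this, det_diagonal]
      unfold pz
      rw [Finset.prod_ite, Finset.prod_const_one, one_mul]
      exact (Finset.prod_subtype (p := fun i => ¬ β i = 0)
        (Finset.univ.filter fun i => ¬ β i = 0) (fun i => by simp) β).symm
  · intro i hi j hj
    simp only [lmat, Matrix.of_apply]
    rw [if_neg hi, diagonal_apply, if_neg]
    rintro rfl
    exact hi hj

theorem tendsto_scal (β : n → ℝ) (G : Matrix n n ℝ) :
    Tendsto (scal β G) atTop (𝓝 (lmat β G)) := by
  have hinv : Tendsto (fun t : ℝ => t⁻¹) atTop (𝓝 0) := tendsto_inv_atTop_zero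
  refine tendsto_pi_nhds.2 fun i => tendsto_pi_nhds.2 fun j => ?_
  by_cases h : β i = 0
  · have : ∀ t, scal β G t i j = G i j := by
      intro t
      simp only [scal, Matrix.of_apply, if_pos h, Matrix.add_apply, Matrix.smul_apply,
        diagonal_apply, smul_eq_mul]
      split_ifs <;> simp [h]
    simp only [this]
    simp only [lmat, Matrix.of_apply, if_pos h]
    exact tendsto_const_nhds
  · have h1 : Tendsto (fun t : ℝ => t⁻¹ * G i j + diagonal β i j) atTop
        (𝓝 (0 * G i j + diagonal β i j)) := (hinv.mul_const _).add_const _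
    have h2 : lmat β G i j = 0 * G i j + diagonal β i j := by
      simp [lmat, h]
    rw [h2]
    refine h1.congr' ?_
    filter_upwards [eventually_gt_atTop (0:ℝ)] with t ht
    simp only [scal, Matrix.of_apply, if_neg h, Matrix.add_apply, Matrix.smul_apply,
      smul_eq_mul]
    field_simp
    ring

/-- leading coefficient of the determinant -/
theorem tendsto_det (β : n → ℝ) (G : Matrix n n ℝ) :
    Tendsto (fun t : ℝ => (t⁻¹) ^ (nn β) * (t • diagonal β + G).det) atTop
      (𝓝 ((bz β G).det * pz β)) := by
  rw [← det_lmat]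
  have := ((continuous_id.matrix_det).tendsto (lmat β G)).comp (tendsto_scal β G)
  refine this.congr fun t => ?_
  exact det_scal β G t

/-- a coefficient as a limit -/
theorem coeff_of_tendsto {q : ℝ[X]} {N : ℕ} {a : ℝ}
    (h : Tendsto (fun t : ℝ => (t⁻¹) ^ N * q.eval t) atTop (𝓝 a)) : q.coeff N = a := by
  have h' : Tendsto (fun t : ℝ => q.eval t / (X ^ N : ℝ[X]).eval t) atTop (𝓝 a) := by
    refine h.congr fun t => ?_
    rw [eval_pow, eval_X, inv_pow, div_eq_inv_mul]
  have hX : (X ^ N : ℝ[X]) ≠ 0 := pow_ne_zero _ X_ne_zero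
  rcases lt_trichotomy q.degree (X ^ N : ℝ[X]).degree with hd | hd | hd
  · have h1 := Polynomial.div_tendsto_zero_of_degree_lt _ _ hd
    have h2 := tendsto_nhds_unique h' h1
    rw [h2]
    rw [degree_X_pow] at hd
    exact coeff_eq_zero_of_degree_lt hd
  · have h1 := Polynomial.div_tendsto_leadingCoeff_div_of_degree_eq _ _ hd
    have h2 := tendsto_nhds_unique h' h1
    rw [h2]
    rw [degree_X_pow] at hd
    rw [leadingCoeff_X_pow, div_one, leadingCoeff, natDegree_eq_of_degree_eq_some hd]
  · exfalso
    have hq : q ≠ 0 := by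
      rintro rfl
      simp at hd
    have h1 := Polynomial.abs_div_tendsto_atTop_of_degree_gt q (X ^ N) hd hX
    exact not_tendsto_nhds_of_tendsto_atTop h1 _ h'.abs

/-- a polynomial with a finite limit is constant -/
theorem const_of_tendsto {q : ℝ[X]} {a : ℝ}
    (h : Tendsto (fun t : ℝ => q.eval t) atTop (𝓝 a)) : q = C a := by
  have h0 : q.degree ≤ 0 := by
    rw [← Polynomial.abs_isBoundedUnder_iff]
    exact h.abs.isBoundedUnder_le
  rw [eq_C_of_degree_le_zero h0] at h ⊢
  simp only [eval_C] at h
  rw [tendsto_nhds_unique h tendsto_const_nhds]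

theorem tendsto_slope_inv {f : ℝ → ℝ} {f' : ℝ} (h : HasDerivAt f f' 0) (s : ℝ) :
    Tendsto (fun X : ℝ => X * (f (s / X) - f 0)) atTop (𝓝 (s * f')) := by
  have h1 : HasDerivAt (fun u : ℝ => f (s * u)) (s * f') 0 := by
    have h2 : HasDerivAt (fun u : ℝ => s * u) s 0 := by
      simpa using (hasDerivAt_id (0:ℝ)).const_mul s
    have h3 : HasDerivAt f f' (s * 0) := by rwa [mul_zero]
    have := h3.comp (0:ℝ) h2
    rw [mul_comm s f']
    exact this
  have h4 := h1.tendsto_slope_zero_right
  have h5 := h4.comp tendsto_inv_atTop_nhdsGT_zero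
  refine h5.congr fun X => ?_
  simp [div_eq_mul_inv]

/-- `det (x0 + G_ZZ(s))` is homogeneous when the zero block of `G 0` vanishes -/
theorem det_hom (β : n → ℝ) (G : ℝ → Matrix n n ℝ) (G1 : Matrix n n ℝ)
    (P : ℝ → ℝ → ℝ[X][X]) {r : ℝ}
    (hP : ∀ x0 s Y t : ℝ, 0 < Y → |s| < r * Y →
      (t • diagonal β + (x0 • (1 : Matrix n n ℝ) + Y • G (s / Y))).det
        = ((P x0 s).map (evalRingHom Y)).eval t)
    (h0 : bz β (G 0) = 0)
    (hG : ∀ i j, HasDerivAt (fun s => G s i j) (G1 i j) 0) (s : ℝ) (hs : |s| < r) (x0 : ℝ) :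
    (bz β (x0 • (1 : Matrix n n ℝ) + G s)).det
      = (bz β (x0 • (1 : Matrix n n ℝ) + s • G1)).det := by
  set c : ℝ[X] := (P x0 s).coeff (nn β) with hc
  have key : ∀ Y : ℝ, 1 ≤ Y →
      (bz β (x0 • (1 : Matrix n n ℝ) + Y • G (s / Y))).det * pz β = c.eval Y := by
    intro Y hY
    have hY0 : 0 < Y := by linarith
    have hr : 0 < r := lt_of_le_of_lt (abs_nonneg s) hs
    have hsY : |s| < r * Y := by nlinarith
    have h1 := tendsto_det β (x0 • (1 : Matrix n n ℝ) + Y • G (s / Y))
    have h2 := coeff_of_tendsto (h1.congr fun t => by rw [hP x0 s Y t hY0 hsY])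
    rw [← h2, coeff_map]
    rfl
  have lim : Tendsto (fun Y : ℝ => c.eval Y) atTop
      (𝓝 ((bz β (x0 • (1 : Matrix n n ℝ) + s • G1)).det * pz β)) := by
    have h1 : Tendsto (fun Y : ℝ => bz β (x0 • (1 : Matrix n n ℝ) + Y • G (s / Y))) atTop
        (𝓝 (bz β (x0 • (1 : Matrix n n ℝ) + s • G1))) := by
      refine tendsto_pi_nhds.2 fun i => tendsto_pi_nhds.2 fun j => ?_
      simp only [bz_apply, Matrix.add_apply, Matrix.smul_apply, smul_eq_mul]
      refine Tendsto.const_add _ ?_
      have h2 := tendsto_slope_inv (hG i.1 j.1) s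
      refine h2.congr fun Y => ?_
      have h3 : G 0 i.1 j.1 = 0 := by
        have := congrFun (congrFun h0 i) j
        simpa [bz_apply] using this
      rw [h3, sub_zero]
    have h2 := ((continuous_id.matrix_det).tendsto _).comp h1
    refine (h2.mul_const (pz β)).congr' ?_
    filter_upwards [eventually_ge_atTop (1:ℝ)] with Y hY
    exact key Y hY
  have hcc := const_of_tendsto lim
  have h1 := key 1 le_rfl
  rw [hcc, eval_C, div_one, one_smul] at h1
  exact mul_right_cancel₀ (pz_ne β) h1

theorem rank_add_le {A : Matrix n n ℝ} (hA : A.IsHermitian) {m : ℕ}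
    (h : (X ^ m : ℝ[X]) ∣ A.charpoly) : A.rank + m ≤ Fintype.card n := by
  classical
  have hne : A.charpoly ≠ 0 := A.charpoly_monic.ne_zero
  have h1 : m ≤ A.charpoly.rootMultiplicity 0 := by
    rw [le_rootMultiplicity_iff hne, C_0, sub_zero]
    exact h
  rw [← count_roots, hA.roots_charpoly_eq_eigenvalues, Multiset.count_map] at h1
  rw [hA.rank_eq_card_non_zero_eigs]
  have h2 : (Multiset.filter (fun a => (0:ℝ) = (RCLike.ofReal ∘ hA.eigenvalues) a)
      Finset.univ.val).card = (Finset.univ.filter fun a => hA.eigenvalues a = 0).card := by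
    rw [Finset.card_def, Finset.filter_val]
    congr 1
    refine Multiset.filter_congr fun a _ => ?_
    simp [eq_comm]
  rw [h2] at h1
  have h3 : Fintype.card {i // hA.eigenvalues i ≠ 0}
      = (Finset.univ.filter fun a => hA.eigenvalues a ≠ 0).card := by
    rw [Fintype.card_subtype]
  rw [h3]
  have h4 := Finset.card_filter_add_card_filter_not (s := (Finset.univ : Finset n))
    (fun a => hA.eigenvalues a = 0)
  rw [Finset.card_univ] at h4
  have h5 : (Finset.univ.filter fun a => ¬ hA.eigenvalues a = 0).card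
    = (Finset.univ.filter fun a => hA.eigenvalues a ≠ 0).card := rfl
  omega

theorem diag_zero (β : n → ℝ) (D : Matrix n n ℝ)
    (hr : ∀ t : ℝ, (t • diagonal β + D).rank ≤ nn β) (i : n) (hi : β i = 0) : D i i = 0 := by
  classical
  let J := {j // β j ≠ 0 ∨ j = i}
  let v : J → n := fun j => j.1
  have hcard : Fintype.card J = nn β + 1 := by
    rw [Fintype.card_subtype]
    unfold nn
    have : (Finset.univ.filter fun j => β j ≠ 0 ∨ j = i)
        = insert i (Finset.univ.filter fun j => β j ≠ 0) := by
      ext j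
      simp only [Finset.mem_filter, Finset.mem_univ, true_and, Finset.mem_insert]
      tauto
    rw [this, Finset.card_insert_of_notMem]
    simp [hi]
  have hsub : ∀ t : ℝ, (t • diagonal β + D).submatrix v v
      = t • diagonal (fun j : J => β j.1) + D.submatrix v v := by
    intro t
    ext a b
    simp only [submatrix_apply, Matrix.add_apply, Matrix.smul_apply, diagonal_apply]
    by_cases h : a = b
    · subst h; simp [v]
    · have h' : v a ≠ v b := fun h' => h (Subtype.ext h')
      rw [if_neg h', if_neg h]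
  have hdet : ∀ t : ℝ, (t • diagonal (fun j : J => β j.1) + D.submatrix v v).det = 0 := by
    intro t
    by_contra hne
    have h1 : IsUnit (t • diagonal (fun j : J => β j.1) + D.submatrix v v) := by
      rw [Matrix.isUnit_iff_isUnit_det]
      exact isUnit_iff_ne_zero.2 hne
    have h2 := Matrix.rank_of_isUnit _ h1
    rw [← hsub t] at h2
    have h3 := Matrix.rank_submatrix_le (t • diagonal β + D) v v
    have h4 := hr t
    rw [hcard] at h2
    omega
  have h1 := tendsto_det (fun j : J => β j.1) (D.submatrix v v)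
  simp only [hdet, mul_zero] at h1
  have h2 := tendsto_nhds_unique tendsto_const_nhds h1
  have h3 : (bz (fun j : J => β j.1) (D.submatrix v v)).det = 0 := by
    rcases mul_eq_zero.1 h2.symm with h | h
    · exact h
    · exact absurd h (pz_ne _)
  let k : {j : J // β j.1 = 0} := ⟨⟨i, Or.inr rfl⟩, hi⟩
  have hs : ∀ a : {j : J // β j.1 = 0}, a = k := by
    rintro ⟨⟨a, ha⟩, hb⟩
    rcases ha with ha | ha
    · exact absurd hb ha
    · subst ha; rfl
  have hss : Subsingleton {j : J // β j.1 = 0} := ⟨fun a b => by rw [hs a, hs b]⟩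
  rw [Matrix.det_eq_elem_of_subsingleton _ k] at h3
  exact h3

/-- genericity of the base point: the rows of `D` over the kernel of `β` vanish -/
theorem row_zero (β : n → ℝ) {D : Matrix n n ℝ} (hD : D.PosSemidef)
    (hr : ∀ t : ℝ, (X ^ (Fintype.card {i // β i = 0}) : ℝ[X]) ∣ (t • diagonal β + D).charpoly)
    (i : n) (hi : β i = 0) (j : n) : D i j = 0 := by
  classical
  have hc : Fintype.card {i // β i = 0} + nn β = Fintype.card n := by
    rw [Fintype.card_subtype]
    unfold nn
    exact Finset.card_filter_add_card_filter_not (s := (Finset.univ : Finset n))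
      (fun a => β a = 0)
  have h1 : D i i = 0 := by
    refine diag_zero β D (fun t => ?_) i hi
    have hH : (t • diagonal β + D).IsHermitian := by
      refine IsHermitian.add ?_ hD.1
      unfold IsHermitian
      rw [conjTranspose_smul, diagonal_conjTranspose]
      simp
    have := rank_add_le hH (hr t)
    omega
  have h2 : ∀ c : ℝ, 0 ≤ 2 * c * D i j + c ^ 2 * D j j := by
    intro c
    by_cases hij : i = j
    · subst hij; simp [h1]
    have h3 := hD.dotProduct_mulVec_nonneg (Pi.single i (1:ℝ) + Pi.single j c)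
    have hs : D j i = D i j := by
      have := congrFun (congrFun hD.1 i) j
      simpa using this
    simp only [star_trivial, mulVec_add, mulVec_single, dotProduct_add, add_dotProduct,
      single_dotProduct, Pi.smul_apply, MulOpposite.smul_eq_mul_unop, MulOpposite.unop_op,
      Matrix.col_apply, one_mul] at h3
    rw [h1, hs] at h3
    nlinarith [h3]
  by_contra hne
  have h3 := h2 (- D i j / (D j j + 1))
  have hjj : 0 ≤ D j j := hD.diag_nonneg
  have hpos : 0 < D j j + 1 := by linarith
  have h4 : 2 * (-D i j / (D j j + 1)) * D i j + (-D i j / (D j j + 1)) ^ 2 * D j j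
      = (D i j) ^ 2 / (D j j + 1) ^ 2 * (-2 * (D j j + 1) + D j j) := by
    field_simp
  rw [h4] at h3
  have h5 : 0 < (D i j) ^ 2 / (D j j + 1) ^ 2 := by positivity
  nlinarith

end Vale.Agent.P256.H220
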